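import Vale.Agent.Lib.P358.Defs

namespace Vale.Agent.Lib.P358

open Matrix
open scoped ComplexOrder

/-- the generalized amplitude damping channel as a linear map -/
noncomputable def gadcLin (γ ν : ℝ) :
    Matrix (Fin 2) (Fin 2) ℂ →ₗ[ℂ] Matrix (Fin 2) (Fin 2) ℂ where
  toFun := gadc γ ν
  map_add' M N := by
    ext a b
    fin_cases a <;> fin_cases b <;> simp [gadc] <;> ring
  map_smul' c M := by
    ext a b
    fin_cases a <;> fin_cases b <;> simp [gadc] <;> ring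

theorem gadcLin_apply (γ ν : ℝ) (M : Matrix (Fin 2) (Fin 2) ℂ) : gadcLin γ ν M = gadc γ ν M := rfl

/-- coefficient of a linear map on `2 × 2` matrices -/
noncomputable def coef (Φ : Matrix (Fin 2) (Fin 2) ℂ →ₗ[ℂ] Matrix (Fin 2) (Fin 2) ℂ)
    (p q : Fin 2 × Fin 2) : ℂ := Φ (Matrix.single q.1 q.2 1) p.1 p.2

theorem apply_eq_sum_coef (Φ : Matrix (Fin 2) (Fin 2) ℂ →ₗ[ℂ] Matrix (Fin 2) (Fin 2) ℂ)
    (M : Matrix (Fin 2) (Fin 2) ℂ) (a b : Fin 2) :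
    Φ M a b = ∑ q : Fin 2 × Fin 2, coef Φ (a, b) q * M q.1 q.2 := by
  have h1 : ∀ i j, Φ (single i j (M i j)) = M i j • Φ (single i j 1) := by
    intro i j
    rw [← map_smul]
    congr 1
    ext x y
    simp [single_apply]
  conv_lhs => rw [matrix_eq_sum_single M]
  simp only [map_sum, h1, Matrix.sum_apply, Matrix.smul_apply, smul_eq_mul, Fintype.sum_prod_type,
    coef, mul_comm]

theorem coef_comp (Ψ Θ : Matrix (Fin 2) (Fin 2) ℂ →ₗ[ℂ] Matrix (Fin 2) (Fin 2) ℂ)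
    (p q : Fin 2 × Fin 2) :
    coef (Ψ ∘ₗ Θ) p q = ∑ r : Fin 2 × Fin 2, coef Ψ p r * coef Θ r q := by
  unfold coef
  rw [LinearMap.comp_apply, apply_eq_sum_coef Ψ]
  rfl

/-- coefficient of the tensor power -/
noncomputable def tcoef (Φ : Matrix (Fin 2) (Fin 2) ℂ →ₗ[ℂ] Matrix (Fin 2) (Fin 2) ℂ) (n : ℕ)
    (p q : (Fin n → Fin 2) × (Fin n → Fin 2)) : ℂ :=
  ∏ i, coef Φ (p.1 i, p.2 i) (q.1 i, q.2 i)

theorem tensorPower_apply (Φ : Matrix (Fin 2) (Fin 2) ℂ →ₗ[ℂ] Matrix (Fin 2) (Fin 2) ℂ) (n : ℕ)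
    (ρ : Matrix (Fin n → Fin 2) (Fin n → Fin 2) ℂ) (x y : Fin n → Fin 2) :
    tensorPower Φ n ρ x y =
      ∑ q : (Fin n → Fin 2) × (Fin n → Fin 2), tcoef Φ n (x, y) q * ρ q.1 q.2 := by
  simp [tensorPower, tcoef, coef, Fintype.sum_prod_type]

theorem tcoef_comp (Ψ Θ : Matrix (Fin 2) (Fin 2) ℂ →ₗ[ℂ] Matrix (Fin 2) (Fin 2) ℂ) (n : ℕ)
    (p q : (Fin n → Fin 2) × (Fin n → Fin 2)) :
    tcoef (Ψ ∘ₗ Θ) n p q =
      ∑ r : (Fin n → Fin 2) × (Fin n → Fin 2), tcoef Ψ n p r * tcoef Θ n r q := by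
  unfold tcoef
  simp only [coef_comp]
  rw [Finset.prod_univ_sum, Fintype.piFinset_univ]
  rw [← (Equiv.arrowProdEquivProdArrow (Fin n) (fun _ => Fin 2) (fun _ => Fin 2)).sum_comp]
  refine Finset.sum_congr rfl (fun w _ => ?_)
  rw [← Finset.prod_mul_distrib]
  rfl

theorem tensorPower_comp (Ψ Θ : Matrix (Fin 2) (Fin 2) ℂ →ₗ[ℂ] Matrix (Fin 2) (Fin 2) ℂ) (n : ℕ)
    (ρ : Matrix (Fin n → Fin 2) (Fin n → Fin 2) ℂ) :
    tensorPower (Ψ ∘ₗ Θ) n ρ = tensorPower Ψ n (tensorPower Θ n ρ) := by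
  ext x y
  rw [tensorPower_apply, tensorPower_apply]
  simp only [tensorPower_apply, tcoef_comp, Finset.sum_mul, Finset.mul_sum]
  rw [Finset.sum_comm]
  refine Finset.sum_congr rfl (fun r _ => Finset.sum_congr rfl (fun q _ => ?_))
  ring

theorem coef_kraus {J : Type*} [Fintype J]
    (Θ : Matrix (Fin 2) (Fin 2) ℂ →ₗ[ℂ] Matrix (Fin 2) (Fin 2) ℂ)
    (K : J → Matrix (Fin 2) (Fin 2) ℂ) (hK : ∀ M, Θ M = ∑ j, K j * M * (K j)ᴴ)
    (p q : Fin 2 × Fin 2) :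
    coef Θ p q = ∑ j, K j p.1 q.1 * star (K j p.2 q.2) := by
  unfold coef
  rw [hK, Matrix.sum_apply]
  refine Finset.sum_congr rfl (fun j _ => ?_)
  rcases q with ⟨c, d⟩
  fin_cases c <;> fin_cases d <;>
    simp [Matrix.mul_apply, Matrix.single_apply, Matrix.conjTranspose_apply]

/-- tensor product of a string of Kraus matrices -/
noncomputable def tkraus {J : Type*} (K : J → Matrix (Fin 2) (Fin 2) ℂ) (n : ℕ) (j : Fin n → J) :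
    Matrix (Fin n → Fin 2) (Fin n → Fin 2) ℂ :=
  Matrix.of fun x x' => ∏ i, K (j i) (x i) (x' i)

theorem tcoef_kraus {J : Type*} [Fintype J] [DecidableEq J]
    (Θ : Matrix (Fin 2) (Fin 2) ℂ →ₗ[ℂ] Matrix (Fin 2) (Fin 2) ℂ)
    (K : J → Matrix (Fin 2) (Fin 2) ℂ) (hK : ∀ M, Θ M = ∑ j, K j * M * (K j)ᴴ) (n : ℕ)
    (p q : (Fin n → Fin 2) × (Fin n → Fin 2)) :
    tcoef Θ n p q = ∑ j : Fin n → J, tkraus K n j p.1 q.1 * star (tkraus K n j p.2 q.2) := by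
  unfold tcoef
  simp only [coef_kraus Θ K hK]
  rw [Finset.prod_univ_sum, Fintype.piFinset_univ]
  refine Finset.sum_congr rfl (fun j _ => ?_)
  simp [tkraus, Finset.prod_mul_distrib]

theorem tensorPower_kraus {J : Type*} [Fintype J] [DecidableEq J]
    (Θ : Matrix (Fin 2) (Fin 2) ℂ →ₗ[ℂ] Matrix (Fin 2) (Fin 2) ℂ)
    (K : J → Matrix (Fin 2) (Fin 2) ℂ) (hK : ∀ M, Θ M = ∑ j, K j * M * (K j)ᴴ) (n : ℕ)
    (ρ : Matrix (Fin n → Fin 2) (Fin n → Fin 2) ℂ) :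
    tensorPower Θ n ρ = ∑ j : Fin n → J, tkraus K n j * ρ * (tkraus K n j)ᴴ := by
  ext x y
  rw [tensorPower_apply, Matrix.sum_apply]
  simp only [tcoef_kraus Θ K hK, Finset.sum_mul]
  rw [Finset.sum_comm]
  refine Finset.sum_congr rfl (fun j _ => ?_)
  simp only [Matrix.mul_apply, Matrix.conjTranspose_apply, Fintype.sum_prod_type, Finset.sum_mul]
  rw [Finset.sum_comm]
  refine Finset.sum_congr rfl (fun y' _ => Finset.sum_congr rfl (fun x' _ => ?_))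
  ring

theorem tensorPower_posSemidef {J : Type*} [Fintype J] [DecidableEq J]
    (Θ : Matrix (Fin 2) (Fin 2) ℂ →ₗ[ℂ] Matrix (Fin 2) (Fin 2) ℂ)
    (K : J → Matrix (Fin 2) (Fin 2) ℂ) (hK : ∀ M, Θ M = ∑ j, K j * M * (K j)ᴴ) (n : ℕ)
    (ρ : Matrix (Fin n → Fin 2) (Fin n → Fin 2) ℂ) (hρ : ρ.PosSemidef) :
    (tensorPower Θ n ρ).PosSemidef := by
  rw [tensorPower_kraus Θ K hK]
  exact Matrix.posSemidef_sum _ (fun j _ => hρ.mul_mul_conjTranspose_same _)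

theorem tensorPower_trace (Θ : Matrix (Fin 2) (Fin 2) ℂ →ₗ[ℂ] Matrix (Fin 2) (Fin 2) ℂ)
    (hT : ∀ M, (Θ M).trace = M.trace) (n : ℕ)
    (ρ : Matrix (Fin n → Fin 2) (Fin n → Fin 2) ℂ) :
    (tensorPower Θ n ρ).trace = ρ.trace := by
  have h1 : ∀ c d : Fin 2, ∑ a : Fin 2, coef Θ (a, a) (c, d) = if c = d then 1 else 0 := by
    intro c d
    have := hT (single c d 1)
    rw [Matrix.trace] at this
    simp only [Matrix.diag_apply] at this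
    unfold coef
    rw [this]
    by_cases h : c = d
    · subst h; simp
    · simp [h, Matrix.trace_single_eq_of_ne]
  have h2 : ∀ q : (Fin n → Fin 2) × (Fin n → Fin 2),
      ∑ x : Fin n → Fin 2, tcoef Θ n (x, x) q = if q.1 = q.2 then 1 else 0 := by
    intro q
    unfold tcoef
    have := Finset.prod_univ_sum (fun _ : Fin n => (Finset.univ : Finset (Fin 2)))
      (fun i a => coef Θ (a, a) (q.1 i, q.2 i))
    rw [Fintype.piFinset_univ] at this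
    rw [← this]
    simp only [h1, Finset.prod_boole, Finset.mem_univ, forall_const, funext_iff]
  rw [Matrix.trace]
  simp only [Matrix.diag_apply, tensorPower_apply]
  rw [Finset.sum_comm]
  simp only [← Finset.sum_mul, h2, Fintype.sum_prod_type, ite_mul, one_mul, zero_mul,
    Finset.sum_ite_eq, Finset.mem_univ, if_true]
  rfl

/-- Kraus operators of the generalized amplitude damping channel -/
noncomputable def gadcKraus (γ ν : ℝ) : Fin 4 → Matrix (Fin 2) (Fin 2) ℂ :=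
  ![!![((Real.sqrt (1 - ν) : ℝ) : ℂ), 0; 0, ((Real.sqrt (1 - ν) : ℝ) : ℂ) * ((Real.sqrt (1 - γ) : ℝ) : ℂ)],
    !![0, ((Real.sqrt (1 - ν) : ℝ) : ℂ) * ((Real.sqrt γ : ℝ) : ℂ); 0, 0],
    !![((Real.sqrt ν : ℝ) : ℂ) * ((Real.sqrt (1 - γ) : ℝ) : ℂ), 0; 0, ((Real.sqrt ν : ℝ) : ℂ)],
    !![0, 0; ((Real.sqrt ν : ℝ) : ℂ) * ((Real.sqrt γ : ℝ) : ℂ), 0]]

theorem kraus_entry (K M : Matrix (Fin 2) (Fin 2) ℂ) (a b : Fin 2) :
    (K * M * Kᴴ) a b =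
      (K a 0 * M 0 0 + K a 1 * M 1 0) * star (K b 0) +
      (K a 0 * M 0 1 + K a 1 * M 1 1) * star (K b 1) := by
  simp [Matrix.mul_apply, Matrix.conjTranspose_apply, Fin.sum_univ_two]

theorem gadc_kraus (γ ν : ℝ) (hγ : 0 ≤ γ) (hγ1 : γ ≤ 1) (hν : 0 ≤ ν) (hν1 : ν ≤ 1)
    (M : Matrix (Fin 2) (Fin 2) ℂ) :
    gadc γ ν M = ∑ j, gadcKraus γ ν j * M * (gadcKraus γ ν j)ᴴ := by
  have h1 : ((Real.sqrt (1 - ν) : ℝ) : ℂ) ^ 2 = 1 - (ν : ℂ) := by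
    rw [← Complex.ofReal_pow, Real.sq_sqrt (by linarith)]; push_cast; ring
  have h2 : ((Real.sqrt ν : ℝ) : ℂ) ^ 2 = (ν : ℂ) := by
    rw [← Complex.ofReal_pow, Real.sq_sqrt hν]
  have h3 : ((Real.sqrt γ : ℝ) : ℂ) ^ 2 = (γ : ℂ) := by
    rw [← Complex.ofReal_pow, Real.sq_sqrt hγ]
  have h4 : ((Real.sqrt (1 - γ) : ℝ) : ℂ) ^ 2 = 1 - (γ : ℂ) := by
    rw [← Complex.ofReal_pow, Real.sq_sqrt (by linarith)]; push_cast; ring
  ext a b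
  rw [Matrix.sum_apply]
  simp only [kraus_entry, Fin.sum_univ_four]
  fin_cases a <;> fin_cases b
  · simp [gadc, gadcKraus]
    linear_combination (-(M 0 0)) * h1 - (M 0 0) * ((Real.sqrt (1 - γ) : ℝ) : ℂ) ^ 2 * h2
      - (M 0 0) * (ν : ℂ) * h4 - (M 1 1) * ((Real.sqrt γ : ℝ) : ℂ) ^ 2 * h1
      - (M 1 1) * (1 - (ν : ℂ)) * h3
  · simp [gadc, gadcKraus]
    linear_combination (-(M 0 1)) * ((Real.sqrt (1 - γ) : ℝ) : ℂ) * h1
      - (M 0 1) * ((Real.sqrt (1 - γ) : ℝ) : ℂ) * h2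
  · simp [gadc, gadcKraus]
    linear_combination (-(M 1 0)) * ((Real.sqrt (1 - γ) : ℝ) : ℂ) * h1
      - (M 1 0) * ((Real.sqrt (1 - γ) : ℝ) : ℂ) * h2
  · simp [gadc, gadcKraus]
    linear_combination (-(M 1 1)) * ((Real.sqrt (1 - γ) : ℝ) : ℂ) ^ 2 * h1
      - (M 1 1) * (1 - (ν : ℂ)) * h4 - (M 1 1) * h2
      - (M 0 0) * ((Real.sqrt γ : ℝ) : ℂ) ^ 2 * h2 - (M 0 0) * (ν : ℂ) * h3

theorem gadc_trace (γ ν : ℝ) (M : Matrix (Fin 2) (Fin 2) ℂ) : (gadc γ ν M).trace = M.trace := by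
  simp [gadc, Matrix.trace, Fin.sum_univ_two]
  ring

theorem gadc_comp (γ ν γ₁ ν₁ γ₂ ν₂ : ℝ) (h1 : 0 ≤ 1 - γ₁)
    (hA : 1 - γ = (1 - γ₁) * (1 - γ₂)) (hB : γ * ν = (1 - γ₂) * γ₁ * ν₁ + γ₂ * ν₂) :
    gadcLin γ₂ ν₂ ∘ₗ gadcLin γ₁ ν₁ = gadcLin γ ν := by
  have hs : ((Real.sqrt (1 - γ) : ℝ) : ℂ)
      = ((Real.sqrt (1 - γ₂) : ℝ) : ℂ) * ((Real.sqrt (1 - γ₁) : ℝ) : ℂ) := by
    rw [hA, Real.sqrt_mul h1]; push_cast; ring
  have hA' : (1 : ℂ) - (γ : ℂ) = (1 - (γ₁ : ℂ)) * (1 - (γ₂ : ℂ)) := by exact_mod_cast hA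
  have hB' : (γ : ℂ) * (ν : ℂ) = (1 - (γ₂ : ℂ)) * (γ₁ : ℂ) * (ν₁ : ℂ) + (γ₂ : ℂ) * (ν₂ : ℂ) := by
    exact_mod_cast hB
  apply LinearMap.ext
  intro M
  show gadc γ₂ ν₂ (gadc γ₁ ν₁ M) = gadc γ ν M
  ext a b
  fin_cases a <;> fin_cases b
  · simp [gadc]
    linear_combination (M 0 0) * hB' + (M 1 1) * hA' + (M 1 1) * hB'
  · simp [gadc, hs]
    ring
  · simp [gadc, hs]
    ring
  · simp [gadc]
    linear_combination (-(M 0 0)) * hB' - (M 1 1) * hA' - (M 1 1) * hB'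

theorem holevoValues_subset_of_comp
    (Φ Ψ Θ : Matrix (Fin 2) (Fin 2) ℂ →ₗ[ℂ] Matrix (Fin 2) (Fin 2) ℂ) (hcomp : Ψ ∘ₗ Θ = Φ)
    (hstate : ∀ (n : ℕ) (ρ : Matrix (Fin n → Fin 2) (Fin n → Fin 2) ℂ),
      ρ.PosSemidef ∧ ρ.trace = 1 →
      (tensorPower Θ n ρ).PosSemidef ∧ (tensorPower Θ n ρ).trace = 1) (n : ℕ) :
    holevoValues (tensorPower Φ n) ⊆ holevoValues (tensorPower Ψ n) := by
  rintro c ⟨m, q, ρ, hq, hsum, hρ, rfl⟩
  refine ⟨m, q, fun a => tensorPower Θ n (ρ a), hq, hsum, fun a => hstate n (ρ a) (hρ a), ?_⟩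
  simp only [← hcomp, tensorPower_comp]

theorem gadc_state (γ ν : ℝ) (hγ : 0 ≤ γ) (hγ1 : γ ≤ 1) (hν : 0 ≤ ν) (hν1 : ν ≤ 1)
    (n : ℕ) (ρ : Matrix (Fin n → Fin 2) (Fin n → Fin 2) ℂ) (hρ : ρ.PosSemidef ∧ ρ.trace = 1) :
    (tensorPower (gadc γ ν) n ρ).PosSemidef ∧ (tensorPower (gadc γ ν) n ρ).trace = 1 :=
  ⟨tensorPower_posSemidef (gadcLin γ ν) _ (gadc_kraus γ ν hγ hγ1 hν hν1) n ρ hρ.1,
    by rw [← hρ.2]; exact tensorPower_trace (gadcLin γ ν) (gadc_trace γ ν) n ρ⟩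

/-- If `γ' ν' ≤ γ ν` and `γ' (1 - ν') ≤ γ (1 - ν)`, every Holevo quantity achievable through
`n` copies of the channel with parameters `(γ, ν)` is achievable through `n` copies of the channel
with parameters `(γ', ν')`. -/
theorem gadc_holevoValues_subset (γ ν γ' ν' : ℝ) (hγ1 : γ ≤ 1) (hν : 0 ≤ ν) (hν1 : ν ≤ 1)
    (hγ' : 0 ≤ γ') (hν' : 0 ≤ ν') (hν1' : ν' ≤ 1)
    (h1 : γ' * ν' ≤ γ * ν) (h2 : γ' * (1 - ν') ≤ γ * (1 - ν)) (n : ℕ) :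
    holevoValues (tensorPower (gadc γ ν) n) ⊆ holevoValues (tensorPower (gadc γ' ν') n) := by
  have hle : γ' ≤ γ := by nlinarith
  rcases eq_or_lt_of_le (hle.trans hγ1) with hγ'1 | hγ'1
  · have hγe : γ = 1 := le_antisymm hγ1 (hγ'1 ▸ hle)
    subst hγ'1
    subst hγe
    have : ν = ν' := by linarith
    subst this
    exact subset_rfl
  · have hpos : 0 < 1 - γ' := by linarith
    rcases eq_or_lt_of_le hle with hee | hlt
    · subst hee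
      have hνe : γ' * ν = γ' * ν' := by nlinarith
      refine holevoValues_subset_of_comp (gadcLin γ' ν) (gadcLin γ' ν') (gadcLin 0 0) ?_
        (gadc_state 0 0 le_rfl zero_le_one le_rfl zero_le_one) n
      exact gadc_comp γ' ν 0 0 γ' ν' (by norm_num) (by ring) (by rw [hνe]; ring)
    · have hd : 0 < γ - γ' := by linarith
      have hg0 : 0 ≤ (γ - γ') / (1 - γ') := div_nonneg hd.le hpos.le
      have hg1 : (γ - γ') / (1 - γ') ≤ 1 := by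
        rw [div_le_one hpos]; linarith
      have hn0 : 0 ≤ (γ * ν - γ' * ν') / (γ - γ') := div_nonneg (by linarith) hd.le
      have hn1 : (γ * ν - γ' * ν') / (γ - γ') ≤ 1 := by
        rw [div_le_one hd]; nlinarith
      refine holevoValues_subset_of_comp (gadcLin γ ν) (gadcLin γ' ν')
        (gadcLin ((γ - γ') / (1 - γ')) ((γ * ν - γ' * ν') / (γ - γ'))) ?_
        (gadc_state _ _ hg0 hg1 hn0 hn1) n
      refine gadc_comp γ ν _ _ γ' ν' (by linarith) ?_ ?_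
      · field_simp
        ring
      · field_simp
        ring

theorem gadc_holevoCap_le (γ ν γ' ν' : ℝ) (hγ1 : γ ≤ 1) (hν : 0 ≤ ν) (hν1 : ν ≤ 1)
    (hγ' : 0 ≤ γ') (hν' : 0 ≤ ν') (hν1' : ν' ≤ 1)
    (h1 : γ' * ν' ≤ γ * ν) (h2 : γ' * (1 - ν') ≤ γ * (1 - ν)) (n : ℕ) :
    holevoCap (tensorPower (gadc γ ν) n) ≤ holevoCap (tensorPower (gadc γ' ν') n) := by
  have hsub := gadc_holevoValues_subset γ ν γ' ν' hγ1 hν hν1 hγ' hν' hν1' h1 h2 n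
  unfold holevoCap
  exact iSup₂_le (fun c hc => le_iSup₂_of_le c (hsub hc) le_rfl)

theorem gadc_classicalCap_le (γ ν γ' ν' : ℝ) (hγ1 : γ ≤ 1) (hν : 0 ≤ ν) (hν1 : ν ≤ 1)
    (hγ' : 0 ≤ γ') (hν' : 0 ≤ ν') (hν1' : ν' ≤ 1)
    (h1 : γ' * ν' ≤ γ * ν) (h2 : γ' * (1 - ν') ≤ γ * (1 - ν)) :
    classicalCap (gadc γ ν) ≤ classicalCap (gadc γ' ν') := by
  unfold classicalCap
  refine iSup_mono (fun n => ?_)
  have hsub := gadc_holevoValues_subset γ ν γ' ν' hγ1 hν hν1 hγ' hν' hν1' h1 h2 (n + 1)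
  exact iSup₂_le (fun c hc => le_iSup₂_of_le c (hsub hc) le_rfl)

end Vale.Agent.Lib.P358
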