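import Mathlib

namespace Vale.Agent.Lib.P358

open Matrix
open scoped ComplexOrder

/-- The generalized amplitude damping channel with damping `γ` and stationary excited population
`ν`, as a map on `2 × 2` complex matrices (the linear extension of the action on density matrices
`[[1-q, z],[conj z, q]] ↦ [[1-t, √(1-γ) z],[√(1-γ) conj z, t]]`, `t = (1-γ) q + γ ν`). -/
noncomputable def gadc (γ ν : ℝ) (M : Matrix (Fin 2) (Fin 2) ℂ) : Matrix (Fin 2) (Fin 2) ℂ :=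
  !![((1 - γ * ν : ℝ) : ℂ) * M 0 0 + ((γ * (1 - ν) : ℝ) : ℂ) * M 1 1,
      ((Real.sqrt (1 - γ) : ℝ) : ℂ) * M 0 1;
     ((Real.sqrt (1 - γ) : ℝ) : ℂ) * M 1 0,
      ((γ * ν : ℝ) : ℂ) * M 0 0 + ((1 - γ * (1 - ν) : ℝ) : ℂ) * M 1 1]

/-- The `n`-fold tensor power of a (linear) map `Φ` on `2 × 2` matrices, acting on matrices indexed
by `n`-bit strings: the linear map sending `|x'⟩⟨y'|` to the tensor product of the
`Φ |x' i⟩⟨y' i|`. -/
noncomputable def tensorPower (Φ : Matrix (Fin 2) (Fin 2) ℂ → Matrix (Fin 2) (Fin 2) ℂ)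
    (n : ℕ) (ρ : Matrix (Fin n → Fin 2) (Fin n → Fin 2) ℂ) :
    Matrix (Fin n → Fin 2) (Fin n → Fin 2) ℂ :=
  Matrix.of fun x y => ∑ x' : Fin n → Fin 2, ∑ y' : Fin n → Fin 2,
    (∏ i : Fin n, Φ (Matrix.single (x' i) (y' i) 1) (x i) (y i)) * ρ x' y'

/-- von Neumann entropy in bits: `-∑ λ log₂ λ` over the eigenvalues `λ` of a Hermitian matrix
(and `0` for a non-Hermitian matrix). -/
noncomputable def vnEntropy {d : Type*} [Fintype d] [DecidableEq d] (ρ : Matrix d d ℂ) : ℝ :=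
  if h : ρ.IsHermitian then ∑ i, Real.negMulLog (h.eigenvalues i) / Real.log 2 else 0

/-- The set of Holevo quantities `S(∑ q_a Φ(ρ_a)) - ∑ q_a S(Φ(ρ_a))` of finite ensembles of density
matrices `ρ_a` (positive semidefinite, trace one) with probabilities `q_a`. -/
def holevoValues {d : Type*} [Fintype d] [DecidableEq d] (Φ : Matrix d d ℂ → Matrix d d ℂ) :
    Set ℝ :=
  {c | ∃ (m : ℕ) (q : Fin m → ℝ) (ρ : Fin m → Matrix d d ℂ),
      (∀ a, 0 ≤ q a) ∧ ∑ a, q a = 1 ∧ (∀ a, (ρ a).PosSemidef ∧ (ρ a).trace = 1) ∧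
      c = vnEntropy (∑ a, q a • Φ (ρ a)) - ∑ a, q a * vnEntropy (Φ (ρ a))}

/-- The Holevo capacity `χ(Φ)`: the supremum of the Holevo quantities of all finite ensembles. -/
noncomputable def holevoCap {d : Type*} [Fintype d] [DecidableEq d]
    (Φ : Matrix d d ℂ → Matrix d d ℂ) : EReal :=
  ⨆ c ∈ holevoValues Φ, (c : EReal)

/-- The classical capacity `C(Φ) = sup_{n ≥ 1} χ(Φ^{⊗ n}) / n` of a qubit channel `Φ`. -/
noncomputable def classicalCap (Φ : Matrix (Fin 2) (Fin 2) ℂ → Matrix (Fin 2) (Fin 2) ℂ) :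
    EReal :=
  ⨆ n : ℕ, ⨆ c ∈ holevoValues (tensorPower Φ (n + 1)), ((c / (n + 1 : ℝ) : ℝ) : EReal)

end Vale.Agent.Lib.P358
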